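import Vale.Agent.H6.AB.D
import Vale.Agent.H6.AB.G
import Vale.Agent.H6.AB.Q
import Vale.Agent.H6.AB.A4

/-!
# P252: the affine Bernstein problem fails in every dimension `n ≥ 10`

For every `n ≥ 10` there is an entire function `u ∈ C^∞(ℝ^n)` with positive definite Hessian at
every point which solves the affine maximal equation and is not a quadratic polynomial.
-/

namespace Vale.Agent.Results.P252.EntireHighDim

open Vale.Agent.H6.AB
open scoped ContDiff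

theorem result (n : ℕ) (hn : 10 ≤ n) : ∃ u : (Fin n → ℝ) → ℝ, ContDiff ℝ ∞ u ∧
    (∀ x, (hess u x).PosDef) ∧ (∀ x, affineMaximalOp u x = 0) ∧ ¬ IsQuadratic u := by
  obtain ⟨p, rfl⟩ : ∃ p, n = p + 1 := ⟨n - 1, by omega⟩
  have hp : 9 ≤ p := by omega
  obtain ⟨δ, ξ, ζ, hδ, hξs, hζs, hξ, hζ, hpos⟩ := sol_exists p hp
  obtain ⟨G, G1, G2, ψ, ψ1, ψ2, h0, hGs, hG, hG1, hψ, hψ1, hp0, hp1, hB, hdef, hode⟩ :=
    exists_G p hp δ hδ ξ ζ hξs hζs hξ hζ hpos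
  obtain ⟨hA, hC⟩ := pde_of_ode (ι := Fin (p + 1)) 0 p (by omega) (by simp) G G1 G2 ψ ψ1 ψ2 hδ
    hG hG1 hψ hψ1 hp0 hp1 hB hdef hode
  exact ⟨uf 0 G, uf_contDiff 0 G hδ hGs hp0, hA, hC, uf_not_quadratic 0 G h0⟩

end Vale.Agent.Results.P252.EntireHighDim
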